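import Vale.Agent.P228.Main

open scoped ENNReal
open Vale.Agent.P228

namespace Vale.Agent.Results.P228.InfiniteVariation

/-- Let the additive group of `p`-adic integers act continuously on `M`, with trivial stabilizers at the
points of the domain of a chart `e` of `M` with values in `ℝⁿ`.  In every closed ball inside the chart the
generic element of every small subgroup `p ^ N ℤ_[p]` has infinite `n`-variation. -/
theorem result (p : ℕ) [Fact p.Prime] (n : ℕ) (M : Type*) [TopologicalSpace M]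
    [AddAction ℤ_[p] M] [ContinuousVAdd ℤ_[p] M] (e : OpenPartialHomeomorph M (Fin n → ℝ))
    (hfree : ∀ x ∈ e.source, ∀ a : ℤ_[p], a +ᵥ x = x → a = 0)
    (c : Fin n → ℝ) (R : ℝ) (hR : 0 < R) (hB : Metric.closedBall c R ⊆ e.target) :
    ∃ N₀ : ℕ, ∀ N ≥ N₀,
      (∀ a : ℤ_[p], ∀ x ∈ Metric.closedBall c R, ((p : ℤ_[p]) ^ N * a) +ᵥ e.symm x ∈ e.source) ∧
      {a : ℤ_[p] | ⨆ m : ℕ, dyadicVar (Metric.closedBall c R) m
        (fun x => e (((p : ℤ_[p]) ^ N * a) +ᵥ e.symm x)) = ⊤} ∈ residual ℤ_[p] :=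
  main e hfree hR hB

end Vale.Agent.Results.P228.InfiniteVariation
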